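import Vale.Agent.P154.Final

/-! The reconstruction threshold of the ferromagnetic three-state Potts channel on every regular
tree and on every Poisson tree, and nonreconstruction up to and including the Kesten-Stigum bound
for every offspring law of finite mean. -/

namespace Vale.Agent.Results.P154.PottsThree

open Vale.Agent.P154 Filter Topology
open scoped NNReal

theorem result :
    -- the `d`-ary tree, every `d ≥ 2`
    (∀ d : ℕ, 2 ≤ d → ∀ (lam : ℝ) (h : -1 / 2 ≤ lam ∧ lam ≤ 1), 0 ≤ lam →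
      ((∃ c, 0 < c ∧ ∀ n, c ≤ an (PMF.pure d) (potts lam h) n) ↔ 1 < d * lam ^ 2) ∧
      (Tendsto (fun n => an (PMF.pure d) (potts lam h) n) atTop (𝓝 0) ↔ d * lam ^ 2 ≤ 1)) ∧
    -- the Galton-Watson tree with Poisson offspring, every mean `d`
    (∀ (d : ℝ≥0) (lam : ℝ) (h : -1 / 2 ≤ lam ∧ lam ≤ 1), 0 ≤ lam →
      ((∃ c, 0 < c ∧ ∀ n, c ≤ an (poisson d) (potts lam h) n) ↔ 1 < d * lam ^ 2) ∧
      (Tendsto (fun n => an (poisson d) (potts lam h) n) atTop (𝓝 0) ↔ d * lam ^ 2 ≤ 1)) ∧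
    -- the Galton-Watson tree with any offspring law `ξ` of finite mean `μ`
    (∀ (ξ : PMF ℕ) (μ : ℝ), HasSum (fun k => (ξ k).toReal * k) μ →
      ∀ (lam : ℝ) (h : -1 / 2 ≤ lam ∧ lam ≤ 1), 0 ≤ lam → μ * lam ^ 2 ≤ 1 →
      (lam < 1 ∨ ξ 1 ≠ 1) →
      Tendsto (fun n => an ξ (potts lam h) n) atTop (𝓝 0)) :=
  ⟨fun _ hd _ h h0 => regular_iff hd h h0, fun d _ h h0 => poisson_iff d h h0,
    fun ξ _ hμ _ h h0 hle hne => nonrecon ξ h h0 hμ hle hne⟩

end Vale.Agent.Results.P154.PottsThree
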