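import Vale.Agent.P154.GFinal
import Vale.Agent.P154.Sch3
import Vale.Agent.P154.Sch4

/-! The reconstruction threshold of the ferromagnetic Potts channel with three or four states on
every regular tree and on every Poisson tree, and nonreconstruction up to and including the
Kesten-Stigum bound for every offspring law of finite mean. -/

namespace Vale.Agent.Results.P154.PottsThreeFour

open Vale.Agent.P154.G Filter Topology
open scoped NNReal

theorem result (q : ℕ) (hq : q = 3 ∨ q = 4) :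
    -- the `d`-ary tree, every `d ≥ 2`
    (∀ d : ℕ, 2 ≤ d →
      ∀ (lam : ℝ) (h : 0 ≤ 1 + ((q : ℝ) - 1) * lam ∧ lam ≤ 1), 0 ≤ lam →
      ((∃ c, 0 < c ∧ ∀ n, c ≤ an (PMF.pure d) (potts (q := q) lam h) n) ↔ 1 < d * lam ^ 2) ∧
      (Tendsto (fun n => an (PMF.pure d) (potts (q := q) lam h) n) atTop (𝓝 0) ↔
        d * lam ^ 2 ≤ 1)) ∧
    -- the Galton-Watson tree with Poisson offspring, every mean `d`
    (∀ (d : ℝ≥0) (lam : ℝ) (h : 0 ≤ 1 + ((q : ℝ) - 1) * lam ∧ lam ≤ 1), 0 ≤ lam →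
      ((∃ c, 0 < c ∧ ∀ n, c ≤ an (Vale.Agent.P154.poisson d) (potts (q := q) lam h) n) ↔
        1 < d * lam ^ 2) ∧
      (Tendsto (fun n => an (Vale.Agent.P154.poisson d) (potts (q := q) lam h) n) atTop (𝓝 0) ↔
        d * lam ^ 2 ≤ 1)) ∧
    -- the Galton-Watson tree with any offspring law `ξ` of finite mean `μ`
    (∀ (ξ : PMF ℕ) (μ : ℝ), HasSum (fun k => (ξ k).toReal * k) μ →
      ∀ (lam : ℝ) (h : 0 ≤ 1 + ((q : ℝ) - 1) * lam ∧ lam ≤ 1), 0 ≤ lam → μ * lam ^ 2 ≤ 1 →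
      (lam < 1 ∨ ξ 1 ≠ 1) →
      Tendsto (fun n => an ξ (potts (q := q) lam h) n) atTop (𝓝 0)) := by
  obtain ⟨sc⟩ : Nonempty (Scheme q) := by
    rcases hq with rfl | rfl
    · exact ⟨Vale.Agent.P154.sch3⟩
    · exact ⟨Vale.Agent.P154.sch4⟩
  exact ⟨fun _ hd _ h h0 => regular_iff sc hd h h0, fun d _ h h0 => poisson_iff sc d h h0,
    fun ξ _ hμ _ h h0 hle hne => nonrecon sc ξ h h0 hμ hle hne⟩

end Vale.Agent.Results.P154.PottsThreeFour
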