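import Vale.Agent.P154.GIff
import Vale.Agent.P154.Sch3
import Vale.Agent.P154.Sch4
import Vale.Agent.P154.N3Half
import Vale.Agent.P154.N3Tb

/-! The reconstruction threshold of the ferromagnetic Potts channel with three or four states and
of the three-state channel with eigenvalue at least `-1/4`, on every regular tree and on every
Poisson tree; nonreconstruction for the antiferromagnetic three-state channel up to three quarters
of the Kesten-Stigum bound. -/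

namespace Vale.Agent.Results.P154.PottsTwoSignsB

open Vale.Agent.P154.G Filter Topology
open scoped NNReal

theorem result :
    -- (A) the `d`-ary tree: `q = 3` and `lam ≥ -1/4`, or `q = 4` and `lam ≥ 0`; every `d ≥ 2`
    (∀ (q : ℕ) (lam : ℝ) (h : 0 ≤ 1 + ((q : ℝ) - 1) * lam ∧ lam ≤ 1),
      (q = 3 ∧ -1 / 4 ≤ lam) ∨ (q = 4 ∧ 0 ≤ lam) → ∀ d : ℕ, 2 ≤ d →
      ((∃ c, 0 < c ∧ ∀ n, c ≤ an (PMF.pure d) (potts (q := q) lam h) n) ↔ 1 < d * lam ^ 2) ∧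
      (Tendsto (fun n => an (PMF.pure d) (potts (q := q) lam h) n) atTop (𝓝 0) ↔
        d * lam ^ 2 ≤ 1)) ∧
    -- (B) the Galton-Watson tree with Poisson offspring, same channels, every mean `d`
    (∀ (q : ℕ) (lam : ℝ) (h : 0 ≤ 1 + ((q : ℝ) - 1) * lam ∧ lam ≤ 1),
      (q = 3 ∧ -1 / 4 ≤ lam) ∨ (q = 4 ∧ 0 ≤ lam) → ∀ d : ℝ≥0,
      ((∃ c, 0 < c ∧ ∀ n, c ≤ an (Vale.Agent.P154.poisson d) (potts (q := q) lam h) n) ↔
        1 < d * lam ^ 2) ∧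
      (Tendsto (fun n => an (Vale.Agent.P154.poisson d) (potts (q := q) lam h) n) atTop (𝓝 0) ↔
        d * lam ^ 2 ≤ 1)) ∧
    -- (C) `q = 3` and every admissible `lam`: the `d`-ary tree and the Poisson tree, `d ≥ 16`
    (∀ (lam : ℝ) (h : 0 ≤ 1 + (((3 : ℕ) : ℝ) - 1) * lam ∧ lam ≤ 1),
      (∀ d : ℕ, 16 ≤ d →
        ((∃ c, 0 < c ∧ ∀ n, c ≤ an (PMF.pure d) (potts (q := 3) lam h) n) ↔ 1 < d * lam ^ 2) ∧
        (Tendsto (fun n => an (PMF.pure d) (potts (q := 3) lam h) n) atTop (𝓝 0) ↔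
          d * lam ^ 2 ≤ 1)) ∧
      (∀ d : ℝ≥0, 16 ≤ d →
        ((∃ c, 0 < c ∧ ∀ n, c ≤ an (Vale.Agent.P154.poisson d) (potts (q := 3) lam h) n) ↔
          1 < d * lam ^ 2) ∧
        (Tendsto (fun n => an (Vale.Agent.P154.poisson d) (potts (q := 3) lam h) n) atTop (𝓝 0) ↔
          d * lam ^ 2 ≤ 1))) ∧
    -- (D) nonreconstruction on the Galton-Watson tree with any offspring law `ξ` of finite mean `μ`
    (∀ (ξ : PMF ℕ) (μ : ℝ), HasSum (fun k => (ξ k).toReal * k) μ →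
      (∀ (q : ℕ) (lam : ℝ) (h : 0 ≤ 1 + ((q : ℝ) - 1) * lam ∧ lam ≤ 1),
        (q = 3 ∧ -1 / 4 ≤ lam) ∨ (q = 4 ∧ 0 ≤ lam) → (lam < 1 ∨ ξ 1 ≠ 1) → μ * lam ^ 2 ≤ 1 →
        Tendsto (fun n => an ξ (potts (q := q) lam h) n) atTop (𝓝 0)) ∧
      (∀ (lam : ℝ) (h : 0 ≤ 1 + (((3 : ℕ) : ℝ) - 1) * lam ∧ lam ≤ 1), lam < 0 →
        μ * (4 / 3 * lam ^ 2) < 1 →
        Tendsto (fun n => an ξ (potts (q := 3) lam h) n) atTop (𝓝 0))) := by
  -- nonreconstruction, all laws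
  have key : ∀ (ξ : PMF ℕ) (μ : ℝ), HasSum (fun k => (ξ k).toReal * k) μ →
      ∀ (q : ℕ) (lam : ℝ) (h : 0 ≤ 1 + ((q : ℝ) - 1) * lam ∧ lam ≤ 1),
        (q = 3 ∧ -1 / 4 ≤ lam) ∨ (q = 4 ∧ 0 ≤ lam) → (lam < 1 ∨ ξ 1 ≠ 1) → μ * lam ^ 2 ≤ 1 →
        Tendsto (fun n => an ξ (potts (q := q) lam h) n) atTop (𝓝 0) := by
    intro ξ μ hμ q lam h hq hne hle
    rcases hq with ⟨rfl, hl⟩ | ⟨rfl, hl⟩
    · rcases lt_or_ge lam 0 with h0 | h0
      · refine RPot.nonrecon_le Vale.Agent.P154N.potTb (by norm_num) (by norm_num)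
          (by rw [Vale.Agent.P154N.potTb_t]; norm_num) (by norm_num) ξ h (by linarith) h0 hμ ?_
        have e : (1 / 16 : ℝ) * (lam / (1 / 4)) ^ 2 = lam ^ 2 := by ring
        rw [e]
        exact hle
      · exact nonrecon Vale.Agent.P154.sch3 ξ h h0 hμ hle hne
    · exact nonrecon Vale.Agent.P154.sch4 ξ h hl hμ hle hne
  have hreg : ∀ (q : ℕ) (lam : ℝ) (h : 0 ≤ 1 + ((q : ℝ) - 1) * lam ∧ lam ≤ 1),
      (q = 3 ∧ -1 / 4 ≤ lam) ∨ (q = 4 ∧ 0 ≤ lam) → ∀ d : ℕ, 2 ≤ d →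
      ((∃ c, 0 < c ∧ ∀ n, c ≤ an (PMF.pure d) (potts (q := q) lam h) n) ↔ 1 < d * lam ^ 2) ∧
      (Tendsto (fun n => an (PMF.pure d) (potts (q := q) lam h) n) atTop (𝓝 0) ↔
        d * lam ^ 2 ≤ 1) := by
    intro q lam h hq d hd
    refine regular_iff_of (by rcases hq with h | h <;> omega) d h fun hle => ?_
    refine key _ _ (pure_mean d) q lam h hq (Or.inr ?_) hle
    rw [PMF.pure_apply, if_neg (by omega)]
    norm_num
  have hpoi : ∀ (q : ℕ) (lam : ℝ) (h : 0 ≤ 1 + ((q : ℝ) - 1) * lam ∧ lam ≤ 1),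
      (q = 3 ∧ -1 / 4 ≤ lam) ∨ (q = 4 ∧ 0 ≤ lam) → ∀ d : ℝ≥0,
      ((∃ c, 0 < c ∧ ∀ n, c ≤ an (Vale.Agent.P154.poisson d) (potts (q := q) lam h) n) ↔
        1 < d * lam ^ 2) ∧
      (Tendsto (fun n => an (Vale.Agent.P154.poisson d) (potts (q := q) lam h) n) atTop (𝓝 0) ↔
        d * lam ^ 2 ≤ 1) := by
    intro q lam h hq d
    refine poisson_iff_of (by rcases hq with h | h <;> omega) d h fun hle => ?_
    exact key _ _ (poisson_mean d) q lam h hq (Or.inr (poisson_one_ne d)) hle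
  -- below `-1/4` and `d ≥ 16` the tree is supercritical or critical only at `-1/4`
  have hbig : ∀ (lam : ℝ) (_ : 0 ≤ 1 + (((3 : ℕ) : ℝ) - 1) * lam ∧ lam ≤ 1) (x : ℝ), 16 ≤ x →
      lam < -1 / 4 → ¬ x * lam ^ 2 ≤ 1 := by
    intro lam _ x hx hl hcon
    nlinarith [sq_nonneg lam]
  refine ⟨hreg, hpoi, fun lam h => ⟨fun d hd => ?_, fun d hd => ?_⟩, fun ξ μ hμ =>
    ⟨key ξ μ hμ, fun lam h hl hle => ?_⟩⟩
  · rcases lt_or_ge lam (-1 / 4) with h1 | h1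
    · refine regular_iff_of (by norm_num) d h fun hle => ?_
      exact absurd hle (hbig lam h d (by exact_mod_cast hd) h1)
    · exact hreg 3 lam h (Or.inl ⟨rfl, h1⟩) d (by omega)
  · rcases lt_or_ge lam (-1 / 4) with h1 | h1
    · refine poisson_iff_of (by norm_num) d h fun hle => ?_
      exact absurd hle (hbig lam h d (by exact_mod_cast hd) h1)
    · exact hpoi 3 lam h (Or.inl ⟨rfl, h1⟩) d
  · refine Vale.Agent.P154N.potHalf.nonrecon_lt (by norm_num) (by norm_num) (by norm_num) ξ h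
      (by push_cast at h; linarith [h.1]) hl hμ ?_
    have e : (1 / 3 : ℝ) * (lam / (1 / 2)) ^ 2 = 4 / 3 * lam ^ 2 := by ring
    rw [e]
    exact hle

end Vale.Agent.Results.P154.PottsTwoSignsB
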