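import Vale.Agent.P154.GIff
import Vale.Agent.P154.Sch3
import Vale.Agent.P154.Sch4
import Vale.Agent.P154.N3Half
import Vale.Agent.P154.N3Tb
import Vale.Agent.P154.N3K1
import Vale.Agent.P154.N3K2
import Vale.Agent.P154N.N3Fin4

/-! The reconstruction threshold of the Potts channel with three or four states: on regular trees
and on Poisson trees, for the ferromagnetic channels, for the three-state channel with eigenvalue at
least `-1/4`, for every three-state channel on the regular trees with at most four or at least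
sixteen children; nonreconstruction for the antiferromagnetic three-state channel and general
offspring laws below bounds close to the Kesten-Stigum bound. -/

namespace Vale.Agent.Results.P154.PottsTwoSignsC

open Vale.Agent.P154.G Filter Topology
open scoped NNReal

theorem result :
    -- (A) the `d`-ary tree, `d ≥ 2`
    (∀ (q : ℕ) (lam : ℝ) (h : 0 ≤ 1 + ((q : ℝ) - 1) * lam ∧ lam ≤ 1) (d : ℕ), 2 ≤ d →
      (q = 3 ∧ (-1 / 4 ≤ lam ∨ d ≤ 4 ∨ 16 ≤ d)) ∨ (q = 4 ∧ 0 ≤ lam) →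
      ((∃ c, 0 < c ∧ ∀ n, c ≤ an (PMF.pure d) (potts (q := q) lam h) n) ↔ 1 < d * lam ^ 2) ∧
      (Tendsto (fun n => an (PMF.pure d) (potts (q := q) lam h) n) atTop (𝓝 0) ↔
        d * lam ^ 2 ≤ 1)) ∧
    -- (B) the Galton-Watson tree with Poisson offspring, every mean `d`
    (∀ (q : ℕ) (lam : ℝ) (h : 0 ≤ 1 + ((q : ℝ) - 1) * lam ∧ lam ≤ 1) (d : ℝ≥0),
      (q = 3 ∧ (-1 / 4 ≤ lam ∨ d < 3 ∨ 16 ≤ d)) ∨ (q = 4 ∧ 0 ≤ lam) →
      ((∃ c, 0 < c ∧ ∀ n, c ≤ an (Vale.Agent.P154.poisson d) (potts (q := q) lam h) n) ↔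
        1 < d * lam ^ 2) ∧
      (Tendsto (fun n => an (Vale.Agent.P154.poisson d) (potts (q := q) lam h) n) atTop (𝓝 0) ↔
        d * lam ^ 2 ≤ 1)) ∧
    -- (C) nonreconstruction on the Galton-Watson tree with any offspring law `ξ` of finite mean `μ`
    (∀ (ξ : PMF ℕ) (μ : ℝ), HasSum (fun k => (ξ k).toReal * k) μ →
      (∀ (q : ℕ) (lam : ℝ) (h : 0 ≤ 1 + ((q : ℝ) - 1) * lam ∧ lam ≤ 1),
        (q = 3 ∧ -1 / 4 ≤ lam) ∨ (q = 4 ∧ 0 ≤ lam) → (lam < 1 ∨ ξ 1 ≠ 1) → μ * lam ^ 2 ≤ 1 →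
        Tendsto (fun n => an ξ (potts (q := q) lam h) n) atTop (𝓝 0)) ∧
      (∀ (lam : ℝ) (h : 0 ≤ 1 + (((3 : ℕ) : ℝ) - 1) * lam ∧ lam ≤ 1), lam < 0 →
        (μ * (4 / 3 * lam ^ 2) < 1 ∨ (-15 / 32 ≤ lam ∧ (μ + 1) * lam ^ 2 ≤ 1)) →
        Tendsto (fun n => an ξ (potts (q := 3) lam h) n) atTop (𝓝 0))) := by
  -- nonreconstruction, all laws
  have key : ∀ (ξ : PMF ℕ) (μ : ℝ), HasSum (fun k => (ξ k).toReal * k) μ →
      ∀ (q : ℕ) (lam : ℝ) (h : 0 ≤ 1 + ((q : ℝ) - 1) * lam ∧ lam ≤ 1),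
        (q = 3 ∧ -1 / 4 ≤ lam) ∨ (q = 4 ∧ 0 ≤ lam) → (lam < 1 ∨ ξ 1 ≠ 1) → μ * lam ^ 2 ≤ 1 →
        Tendsto (fun n => an ξ (potts (q := q) lam h) n) atTop (𝓝 0) := by
    intro ξ μ hμ q lam h hq hne hle
    rcases hq with ⟨rfl, hl⟩ | ⟨rfl, hl⟩
    · rcases lt_or_ge lam 0 with h0 | h0
      · refine RPot.nonrecon_le Vale.Agent.P154N.potTb (by norm_num) (by norm_num)
          (by rw [Vale.Agent.P154N.potTb_t]; norm_num) (by norm_num) ξ h (by linarith) h0 hμ ?_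
        have e : (1 / 16 : ℝ) * (lam / (1 / 4)) ^ 2 = lam ^ 2 := by ring
        rw [e]
        exact hle
      · exact nonrecon Vale.Agent.P154.sch3 ξ h h0 hμ hle hne
    · exact nonrecon Vale.Agent.P154.sch4 ξ h hl hμ hle hne
  have neg : ∀ (ξ : PMF ℕ) (μ : ℝ), HasSum (fun k => (ξ k).toReal * k) μ →
      ∀ (lam : ℝ) (h : 0 ≤ 1 + (((3 : ℕ) : ℝ) - 1) * lam ∧ lam ≤ 1), lam < 0 →
        -15 / 32 ≤ lam → (μ + 1) * lam ^ 2 ≤ 1 →
        Tendsto (fun n => an ξ (potts (q := 3) lam h) n) atTop (𝓝 0) := by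
    intro ξ μ hμ lam h h0 hl hle
    have hμ0 : 0 ≤ μ := hμ.nonneg fun k => by positivity
    rcases lt_or_ge lam (-3 / 8) with h1 | h1
    · refine RPot.nonrecon_le Vale.Agent.P154N.potK1 (by norm_num) (by norm_num)
        (by rw [Vale.Agent.P154N.potK1_t]; norm_num) (by norm_num) ξ h (by linarith) h0 hμ ?_
      have e : (261 / 1024 : ℝ) * (lam / (15 / 32)) ^ 2 = 29 / 25 * lam ^ 2 := by ring
      rw [e]
      nlinarith
    · rcases lt_or_ge lam (-1 / 4) with h2 | h2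
      · refine RPot.nonrecon_le Vale.Agent.P154N.potK2 (by norm_num) (by norm_num)
          (by rw [Vale.Agent.P154N.potK2_t]; norm_num) (by norm_num) ξ h (by linarith) h0 hμ ?_
        have e : (19 / 128 : ℝ) * (lam / (3 / 8)) ^ 2 = 19 / 18 * lam ^ 2 := by ring
        rw [e]
        nlinarith
      · exact key ξ μ hμ 3 lam h (Or.inl ⟨rfl, h2⟩) (Or.inl (by linarith))
          (by nlinarith [sq_nonneg lam])
  have hreg : ∀ (q : ℕ) (lam : ℝ) (h : 0 ≤ 1 + ((q : ℝ) - 1) * lam ∧ lam ≤ 1),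
      (q = 3 ∧ -1 / 4 ≤ lam) ∨ (q = 4 ∧ 0 ≤ lam) → ∀ d : ℕ, 2 ≤ d →
      ((∃ c, 0 < c ∧ ∀ n, c ≤ an (PMF.pure d) (potts (q := q) lam h) n) ↔ 1 < d * lam ^ 2) ∧
      (Tendsto (fun n => an (PMF.pure d) (potts (q := q) lam h) n) atTop (𝓝 0) ↔
        d * lam ^ 2 ≤ 1) := by
    intro q lam h hq d hd
    refine regular_iff_of (by rcases hq with h | h <;> omega) d h fun hle => ?_
    refine key _ _ (pure_mean d) q lam h hq (Or.inr ?_) hle
    rw [PMF.pure_apply, if_neg (by omega)]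
    norm_num
  have hpoi : ∀ (q : ℕ) (lam : ℝ) (h : 0 ≤ 1 + ((q : ℝ) - 1) * lam ∧ lam ≤ 1),
      (q = 3 ∧ -1 / 4 ≤ lam) ∨ (q = 4 ∧ 0 ≤ lam) → ∀ d : ℝ≥0,
      ((∃ c, 0 < c ∧ ∀ n, c ≤ an (Vale.Agent.P154.poisson d) (potts (q := q) lam h) n) ↔
        1 < d * lam ^ 2) ∧
      (Tendsto (fun n => an (Vale.Agent.P154.poisson d) (potts (q := q) lam h) n) atTop (𝓝 0) ↔
        d * lam ^ 2 ≤ 1) := by
    intro q lam h hq d
    refine poisson_iff_of (by rcases hq with h | h <;> omega) d h fun hle => ?_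
    exact key _ _ (poisson_mean d) q lam h hq (Or.inr (poisson_one_ne d)) hle
  -- below `-1/4` and `d ≥ 16` the tree is supercritical
  have hbig : ∀ (lam : ℝ) (x : ℝ), 16 ≤ x → lam < -1 / 4 → ¬ x * lam ^ 2 ≤ 1 := by
    intro lam x hx hl hcon
    nlinarith [sq_nonneg lam]
  refine ⟨fun q lam h d hd hq => ?_, fun q lam h d hq => ?_, fun ξ μ hμ =>
    ⟨key ξ μ hμ, fun lam h hl hle => ?_⟩⟩
  · rcases hq with ⟨rfl, hq⟩ | hq
    · rcases le_or_gt (-1 / 4) lam with h1 | h1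
      · exact hreg 3 lam h (Or.inl ⟨rfl, h1⟩) d hd
      · refine regular_iff_of (by norm_num) d h fun hle => ?_
        rcases hq with h2 | h2 | h2
        · linarith
        · exact Vale.Agent.P154N.four_neg h2 h (by linarith)
        · exact absurd hle (hbig lam d (by exact_mod_cast h2) h1)
    · exact hreg q lam h (Or.inr hq) d hd
  · rcases hq with ⟨rfl, hq⟩ | hq
    · rcases le_or_gt (-1 / 4) lam with h1 | h1
      · exact hpoi 3 lam h (Or.inl ⟨rfl, h1⟩) d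
      · refine poisson_iff_of (by norm_num) d h fun hle => ?_
        rcases hq with h2 | h2 | h2
        · linarith
        · refine Vale.Agent.P154N.potHalf.nonrecon_lt (by norm_num) (by norm_num) (by norm_num) _ h
            (by push_cast at h; linarith [h.1]) (by linarith) (poisson_mean d) ?_
          have e : (1 / 3 : ℝ) * (lam / (1 / 2)) ^ 2 = 4 / 3 * lam ^ 2 := by ring
          rw [e]
          have hl2 : lam ^ 2 ≤ 1 / 4 := by
            have : -1 / 2 ≤ lam := by push_cast at h; linarith [h.1]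
            nlinarith
          have hd3 : (d : ℝ) < 3 := by exact_mod_cast h2
          nlinarith [d.coe_nonneg]
        · exact absurd hle (hbig lam d (by exact_mod_cast h2) h1)
    · exact hpoi q lam h (Or.inr hq) d
  · rcases hle with hle | ⟨h1, hle⟩
    · refine Vale.Agent.P154N.potHalf.nonrecon_lt (by norm_num) (by norm_num) (by norm_num) ξ h
        (by push_cast at h; linarith [h.1]) hl hμ ?_
      have e : (1 / 3 : ℝ) * (lam / (1 / 2)) ^ 2 = 4 / 3 * lam ^ 2 := by ring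
      rw [e]
      exact hle
    · exact neg ξ μ hμ lam h hl h1 hle

end Vale.Agent.Results.P154.PottsTwoSignsC
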